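import Mathlib

/-!
# P181 (Foulkes' conjecture): plethysm multiplicities through highest weight vectors

`V = ℂ^n` with basis `x_0, …, x_{n-1}`.  A monomial `x^m` of degree `b` is encoded by its exponent
vector `m : Fin n → ℕ` with `∑ i, m i = b`; these monomials are a basis of `Sym^b V`.
`Sym^a (Sym^b V)` is realised as the space of homogeneous polynomials of degree `a` in
variables `X m`, one for each monomial `x^m` of degree `b`.
-/

namespace Vale.Agent.Lib.P181

open MvPolynomial

/-- Polynomials in variables `X m`, one for every exponent vector `m : Fin n → ℕ`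
(that is, one for every monomial `x^m` in `n` variables). -/
abbrev PolyRing (n : ℕ) := MvPolynomial (Fin n → ℕ) ℂ

/-- The action of the elementary matrix `E_{ij}` of `gl_n`: the derivation of `PolyRing n` with
`X_m ↦ m_j • X_{m - e_j + e_i}`, induced by the operator `x_i ∂/∂x_j` on monomials `x^m`. -/
noncomputable def raise (n : ℕ) (i j : Fin n) : Derivation ℂ (PolyRing n) (PolyRing n) :=
  mkDerivation ℂ fun m => C (m j : ℂ) * X (m - Pi.single j 1 + Pi.single i 1)

/-- `Sym^a (Sym^b ℂ^n)`: homogeneous polynomials of degree `a` involving only variables `X m`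
with `m` of total degree `b`. -/
noncomputable def SymSym (n a b : ℕ) : Submodule ℂ (PolyRing n) :=
  (supported ℂ {m : Fin n → ℕ | ∑ i, m i = b}).toSubmodule ⊓
    homogeneousSubmodule (Fin n → ℕ) ℂ a

/-- The space of highest weight vectors of weight `lam` in `Sym^a (Sym^b ℂ^n)`: elements all of
whose monomials `∏ X_{m_k}` have torus weight `∑ m_k = lam`, and which are annihilated by
all the raising operators `E_{ij}`, `i < j`. -/
noncomputable def HW (n a b : ℕ) (lam : Fin n → ℕ) : Submodule ℂ (PolyRing n) :=
  SymSym n a b ⊓ weightedHomogeneousSubmodule ℂ (fun m : Fin n → ℕ => m) lam ⊓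
    ⨅ (i : Fin n) (j : Fin n) (_ : i < j), LinearMap.ker (raise n i j).toLinearMap

/-- The multiplicity of the irreducible `GL_n`-module of highest weight `lam` (the Schur module
`S_lam ℂ^n`) in `Sym^a (Sym^b ℂ^n)`: the dimension of the space of highest weight vectors. -/
noncomputable def mult (n a b : ℕ) (lam : Fin n → ℕ) : ℕ :=
  Module.finrank ℂ (HW n a b lam)

end Vale.Agent.Lib.P181
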