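import Vale.Agent.Lib.P181.Stab

namespace Vale.Agent.Lib.P181

open MvPolynomial

variable {n : ℕ}

theorem finite_sum_eq (n b : ℕ) : Set.Finite {m : Fin n → ℕ | ∑ i, m i = b} := by
  apply Set.Finite.subset (Finset.finite_toSet (Finset.Nat.antidiagonalTuple n b))
  intro m hm
  exact Finset.mem_coe.mpr (Finset.Nat.mem_antidiagonalTuple.mpr hm)

theorem SymSym_fg (n a b : ℕ) : (SymSym n a b).FG := by
  have hfin : Finite {m : Fin n → ℕ | ∑ i, m i = b} := (finite_sum_eq n b).to_subtype
  have h1 : (homogeneousSubmodule {m : Fin n → ℕ | ∑ i, m i = b} ℂ a).FG :=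
    homogeneousSubmodule_fg _ _ a
  have h2 := h1.map (rename (Subtype.val : {m : Fin n → ℕ | ∑ i, m i = b} → (Fin n → ℕ))
    (R := ℂ)).toLinearMap
  have h3 : SymSym n a b ≤ (homogeneousSubmodule {m : Fin n → ℕ | ∑ i, m i = b} ℂ a).map
      (rename (Subtype.val : {m : Fin n → ℕ | ∑ i, m i = b} → (Fin n → ℕ))
        (R := ℂ)).toLinearMap := by
    intro F hF
    unfold SymSym at hF
    rw [Submodule.mem_inf, Subalgebra.mem_toSubmodule, supported_eq_range_rename,
      mem_homogeneousSubmodule] at hF
    obtain ⟨⟨G, hG⟩, hh⟩ := hF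
    refine ⟨G, ?_, hG⟩
    rw [SetLike.mem_coe, mem_homogeneousSubmodule,
      ← IsHomogeneous.rename_isHomogeneous_iff Subtype.val_injective]
    have hG' : rename Subtype.val G = F := hG
    rw [hG']
    exact hh
  have : FiniteDimensional ℂ ((homogeneousSubmodule {m : Fin n → ℕ | ∑ i, m i = b} ℂ a).map
      (rename (Subtype.val : {m : Fin n → ℕ | ∑ i, m i = b} → (Fin n → ℕ))
        (R := ℂ)).toLinearMap) := Module.Finite.iff_fg.mpr h2
  have h4 : FiniteDimensional ℂ (SymSym n a b) := Submodule.finiteDimensional_of_le h3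
  exact Module.Finite.iff_fg.mp h4

instance HW_finiteDimensional (n a b : ℕ) (lam : Fin n → ℕ) :
    FiniteDimensional ℂ (HW n a b lam) := by
  have : FiniteDimensional ℂ (SymSym n a b) := Module.Finite.iff_fg.mpr (SymSym_fg n a b)
  apply Submodule.finiteDimensional_of_le (S₂ := SymSym n a b)
  unfold HW
  exact inf_le_left.trans inf_le_left

/-- injection given by the shift -/
theorem mult_shift_le (a b : ℕ) (lam : Fin (n + 2) → ℕ) :
    mult (n + 2) a b lam ≤ mult (n + 2) a (b + 1) (lam + Pi.single 0 a) := by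
  unfold mult
  let f : HW (n + 2) a b lam →ₗ[ℂ] HW (n + 2) a (b + 1) (lam + Pi.single 0 a) :=
    (rename sh (R := ℂ)).toLinearMap.restrict (fun F hF => shift_mem hF)
  apply LinearMap.finrank_le_finrank_of_injective (f := f)
  intro x y hxy
  have h2 := congrArg Subtype.val hxy
  exact Subtype.ext (rename_injective sh sh_injective h2)

/-- the shift is onto when `lam 1 ≤ b` -/
theorem mult_shift_ge (a b : ℕ) (lam : Fin (n + 2) → ℕ) (h1 : lam 1 ≤ b) :
    mult (n + 2) a (b + 1) (lam + Pi.single 0 a) ≤ mult (n + 2) a b lam := by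
  unfold mult
  let f : HW (n + 2) a b lam →ₗ[ℂ] HW (n + 2) a (b + 1) (lam + Pi.single 0 a) :=
    (rename sh (R := ℂ)).toLinearMap.restrict (fun F hF => shift_mem hF)
  apply LinearMap.finrank_le_finrank_of_surjective (f := f)
  intro G
  obtain ⟨F, hF, hFG⟩ := shift_surj h1 G.2
  exact ⟨⟨F, hF⟩, Subtype.ext hFG⟩

theorem mult_shift_eq (a b : ℕ) (lam : Fin (n + 2) → ℕ) (h1 : lam 1 ≤ b) :
    mult (n + 2) a (b + 1) (lam + Pi.single 0 a) = mult (n + 2) a b lam :=
  le_antisymm (mult_shift_ge a b lam h1) (mult_shift_le a b lam)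

/-- injection given by the multiplication by `X_{a e_0}` -/
theorem mult_mulX_le (c a : ℕ) (lam : Fin (n + 2) → ℕ) :
    mult (n + 2) c a lam ≤ mult (n + 2) (c + 1) a (lam + Pi.single 0 a) := by
  unfold mult
  let f : HW (n + 2) c a lam →ₗ[ℂ] HW (n + 2) (c + 1) a (lam + Pi.single 0 a) :=
    (LinearMap.mulLeft ℂ (X (Pi.single 0 a) : PolyRing (n + 2))).restrict
      (fun F hF => mulX_mem hF)
  apply LinearMap.finrank_le_finrank_of_injective (f := f)
  intro x y hxy
  have h2 : (X (Pi.single 0 a) : PolyRing (n + 2)) * x.1 = X (Pi.single 0 a) * y.1 :=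
    congrArg Subtype.val hxy
  exact Subtype.ext (mul_left_cancel₀ (X_ne_zero _) h2)

/-- no highest weight vectors of weight `kap` in `Sym^a(Sym^{b+1})` if `kap 1 ≤ b`, `kap 0 < a` -/
theorem mult_eq_zero_of_lt (a b : ℕ) (kap : Fin (n + 2) → ℕ) (h1 : kap 1 ≤ b) (h0 : kap 0 < a) :
    mult (n + 2) a (b + 1) kap = 0 := by
  unfold mult
  have hbot : HW (n + 2) a (b + 1) kap = ⊥ := by
    rw [eq_bot_iff]
    intro G hG
    rw [Submodule.mem_bot]
    by_contra hne
    rw [mem_HW] at hG
    obtain ⟨hv, hh, hw, hE⟩ := hG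
    have hpos := pos_of_mem_vars hv hw h1 (fun j hj => hE 1 j hj)
    obtain ⟨d, hd⟩ := ne_zero_iff.mp hne
    have hdeg : d.degree = a := by
      rw [Finsupp.degree_eq_weight_one]
      exact hh hd
    have hwt := congrFun (hw hd) 0
    rw [weight_coord] at hwt
    have hle : d.degree ≤ d.sum fun m c => c * m 0 := by
      rw [Finsupp.degree_apply, Finsupp.sum]
      apply Finset.sum_le_sum
      intro m hm
      have hmv : m ∈ G.vars := by
        rw [mem_vars_iff_mem_support]
        exact ⟨d, mem_support_iff.mpr hd, hm⟩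
      have := hpos m hmv
      nlinarith
    omega
  rw [hbot]
  exact finrank_bot ℂ _

/-- **Propagation.** -/
theorem propagation (a b : ℕ) (lam : Fin (n + 2) → ℕ) (h1 : lam 1 ≤ b)
    (h : mult (n + 2) a b lam ≤ mult (n + 2) b a lam) :
    mult (n + 2) a (b + 1) (lam + Pi.single 0 a)
      ≤ mult (n + 2) (b + 1) a (lam + Pi.single 0 a) := by
  rw [mult_shift_eq a b lam h1]
  exact h.trans (mult_mulX_le b a lam)

theorem sub_add_single (a : ℕ) (kap : Fin (n + 2) → ℕ) (h0 : a ≤ kap 0) :
    kap - Pi.single 0 a + Pi.single 0 a = kap := by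
  funext k
  simp only [Pi.add_apply, Pi.sub_apply, Pi.single_apply]
  by_cases hk : k = 0
  · subst hk
    simp only [if_true]
    omega
  · simp [hk]

/-- one step of the reduction: the inequality for `(a, b + 1)` at a weight `kap` with `kap 1 ≤ b`
follows from the inequality for `(a, b)` at the weight `kap - a e_0`. -/
theorem step (a b : ℕ) (kap : Fin (n + 2) → ℕ) (h1 : kap 1 ≤ b)
    (h : mult (n + 2) a b (kap - Pi.single 0 a) ≤ mult (n + 2) b a (kap - Pi.single 0 a)) :
    mult (n + 2) a (b + 1) kap ≤ mult (n + 2) (b + 1) a kap := by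
  by_cases h0 : kap 0 < a
  · rw [mult_eq_zero_of_lt a b kap h1 h0]
    exact Nat.zero_le _
  · have h4 := sub_add_single a kap (by omega)
    have h3 : (kap - Pi.single 0 a : Fin (n + 2) → ℕ) 1 ≤ b := by
      simpa using h1
    generalize kap - Pi.single 0 a = l at h h3 h4
    have h2 := propagation a b l h3 h
    rw [h4] at h2
    exact h2

/-- **Foulkes' inequality for all weights whose second part is at most `a`.** -/
theorem foulkes_second_row (a b : ℕ) (hab : a ≤ b) :
    ∀ lam : Fin (n + 2) → ℕ, lam 1 ≤ a → mult (n + 2) a b lam ≤ mult (n + 2) b a lam := by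
  induction b, hab using Nat.le_induction with
  | base => intro lam _; exact le_rfl
  | succ b hab ih =>
    intro lam h1
    apply step a b lam (h1.trans hab)
    apply ih
    simpa using h1

/-- iterated inner stability, including the vanishing case -/
theorem mult_inner (a d k : ℕ) :
    ∀ lam : Fin (n + 2) → ℕ, lam 1 ≤ d →
      (lam 0 < a * k → mult (n + 2) a (d + k) lam = 0) ∧
      (a * k ≤ lam 0 →
        mult (n + 2) a (d + k) lam = mult (n + 2) a d (lam - Pi.single 0 (a * k))) := by
  induction k with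
  | zero =>
    intro lam _
    refine ⟨fun h => absurd h (by simp), fun _ => ?_⟩
    have : lam - Pi.single 0 (a * 0) = lam := by
      funext i
      simp
    rw [this]
    rfl
  | succ k ih =>
    intro lam h1
    have h1' : lam 1 ≤ d + k := by omega
    by_cases h0 : lam 0 < a
    · have hz := mult_eq_zero_of_lt a (d + k) lam h1' h0
      refine ⟨fun _ => hz, fun h => ?_⟩
      have : a ≤ a * (k + 1) := Nat.le_mul_of_pos_right a (Nat.succ_pos k)
      omega
    · have h4 := sub_add_single a lam (by omega)
      have h3 : (lam - Pi.single 0 a : Fin (n + 2) → ℕ) 1 ≤ d := by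
        simpa using h1
      have h5 : (lam - Pi.single 0 a : Fin (n + 2) → ℕ) 0 = lam 0 - a := by
        simp
      have h6 : (lam - Pi.single 0 a : Fin (n + 2) → ℕ) - Pi.single 0 (a * k)
          = lam - Pi.single 0 (a * (k + 1)) := by
        funext i
        simp only [Pi.sub_apply, Pi.single_apply]
        by_cases hi : i = 0
        · simp only [hi, if_true]
          rw [Nat.mul_succ]
          omega
        · simp [hi]
      generalize lam - Pi.single 0 a = l at h3 h4 h5 h6
      have h7 : mult (n + 2) a (d + (k + 1)) lam = mult (n + 2) a (d + k) l := by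
        rw [← h4]
        exact mult_shift_eq a (d + k) l (by omega)
      obtain ⟨ihz, ihe⟩ := ih l h3
      rw [Nat.mul_succ]
      refine ⟨fun h => ?_, fun h => ?_⟩
      · rw [h7]
        exact ihz (by omega)
      · rw [h7, ihe (by omega), h6, Nat.mul_succ]

/-- iterated outer monotonicity -/
theorem mult_outer (a d j : ℕ) (lam : Fin (n + 2) → ℕ) :
    mult (n + 2) a d lam ≤ mult (n + 2) (a + j) d (lam + Pi.single 0 (d * j)) := by
  induction j with
  | zero =>
    have : lam + Pi.single 0 (d * 0) = lam := by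
      funext i
      simp
    rw [this]
    exact le_rfl
  | succ j ih =>
    have h6 : (lam + Pi.single 0 (d * j) : Fin (n + 2) → ℕ) + Pi.single 0 d
          = lam + Pi.single 0 (d * (j + 1)) := by
      funext i
      simp only [Pi.add_apply, Pi.single_apply]
      by_cases hi : i = 0
      · simp only [hi, if_true]
        rw [Nat.mul_succ]
        omega
      · simp [hi]
    generalize lam + Pi.single 0 (d * j) = l at ih h6
    rw [← h6]
    exact ih.trans (mult_mulX_le (a + j) d l)

/-- **The generalised Foulkes inequality for all weights whose second part is at most `d`.** -/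
theorem general_second_row (a b c d : ℕ) (hac : a ≤ c) (hdb : d ≤ b) (h : a * b = c * d)
    (lam : Fin (n + 2) → ℕ) (h1 : lam 1 ≤ d) :
    mult (n + 2) a b lam ≤ mult (n + 2) c d lam := by
  obtain ⟨k, rfl⟩ := Nat.exists_eq_add_of_le hdb
  obtain ⟨j, rfl⟩ := Nat.exists_eq_add_of_le hac
  have hkj : a * k = d * j := by
    have : a * d + a * k = a * d + d * j := by
      have e1 : a * (d + k) = a * d + a * k := Nat.mul_add a d k
      have e2 : (a + j) * d = a * d + d * j := by rw [Nat.add_mul, Nat.mul_comm j d]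
      omega
    omega
  obtain ⟨hz, he⟩ := mult_inner a d k lam h1
  by_cases h0 : lam 0 < a * k
  · rw [hz h0]
    exact Nat.zero_le _
  · rw [he (by omega)]
    have h4 := sub_add_single (a * k) lam (by omega)
    generalize lam - Pi.single 0 (a * k) = l at h4
    have h5 := mult_outer a d j l
    rw [← hkj, h4] at h5
    exact h5

/-- **Reduction.** For fixed `a`, Foulkes' inequalities for all `b ≥ a` and all weights follow from
those for the weights whose second part is at least `b`. -/
theorem reduction (a : ℕ)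
    (H : ∀ b : ℕ, a < b → ∀ lam : Fin (n + 2) → ℕ, b ≤ lam 1 →
      mult (n + 2) a b lam ≤ mult (n + 2) b a lam) (b : ℕ) (hab : a ≤ b) :
    ∀ lam : Fin (n + 2) → ℕ, mult (n + 2) a b lam ≤ mult (n + 2) b a lam := by
  induction b, hab using Nat.le_induction with
  | base => intro lam; exact le_rfl
  | succ b hab ih =>
    intro lam
    by_cases h1 : b + 1 ≤ lam 1
    · exact H (b + 1) (by omega) lam h1
    · exact step a b lam (by omega) (ih _)

end Vale.Agent.Lib.P181
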