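import Vale.Agent.Lib.P181.Defs

namespace Vale.Agent.Lib.P181

open MvPolynomial

variable {n : ℕ}

theorem raise_X (i j : Fin n) (m : Fin n → ℕ) :
    raise n i j (X m) = C (m j : ℂ) * X (m - Pi.single j 1 + Pi.single i 1) := by
  unfold raise
  rw [mkDerivation_X]

theorem mem_HW {a b : ℕ} {lam : Fin n → ℕ} {F : PolyRing n} :
    F ∈ HW n a b lam ↔
      ((↑F.vars : Set (Fin n → ℕ)) ⊆ {m | ∑ i, m i = b}) ∧ F.IsHomogeneous a ∧
        IsWeightedHomogeneous (fun m : Fin n → ℕ => m) F lam ∧
        ∀ i j : Fin n, i < j → raise n i j F = 0 := by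
  unfold HW SymSym
  simp only [Submodule.mem_inf, Subalgebra.mem_toSubmodule, mem_supported,
    mem_homogeneousSubmodule, mem_weightedHomogeneousSubmodule, Submodule.mem_iInf,
    LinearMap.mem_ker, Derivation.coeFn_coe]
  tauto

/-- coordinates of the weight -/
theorem weight_coord (d : (Fin n → ℕ) →₀ ℕ) (k : Fin n) :
    (Finsupp.weight (fun m : Fin n → ℕ => m) d) k = d.sum fun m c => c * m k := by
  rw [Finsupp.weight_apply, Finsupp.sum, Finsupp.sum, Finset.sum_apply]
  simp

/-- a variable occurring in a weight vector is bounded by the weight -/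
theorem le_of_mem_vars {lam : Fin n → ℕ} {F : PolyRing n}
    (hw : IsWeightedHomogeneous (fun m : Fin n → ℕ => m) F lam) {m : Fin n → ℕ}
    (hm : m ∈ F.vars) (k : Fin n) : m k ≤ lam k := by
  rw [mem_vars_iff_mem_support] at hm
  obtain ⟨d, hd, hmd⟩ := hm
  have h1 := hw (mem_support_iff.mp hd)
  rw [← h1, weight_coord, Finsupp.sum]
  have h2 : d m * m k ≤ ∑ x ∈ d.support, d x * x k :=
    Finset.single_le_sum (f := fun x => d x * x k) (fun _ _ => Nat.zero_le _) hmd
  have h3 : 1 ≤ d m := Nat.one_le_iff_ne_zero.mpr (Finsupp.mem_support_iff.mp hmd)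
  nlinarith

/-- in characteristic zero a vanishing partial derivative means that the variable is absent -/
theorem notMem_vars_of_pderiv_eq_zero {F : PolyRing n} {m : Fin n → ℕ}
    (h : pderiv m F = 0) : m ∉ F.vars := by
  intro hm
  rw [mem_vars_iff_mem_support] at hm
  obtain ⟨d, hd, hmd⟩ := hm
  have h1 := coeff_pderiv F (d - Finsupp.single m 1) (i := m)
  rw [h] at h1
  have h3 : 1 ≤ d m := Nat.one_le_iff_ne_zero.mpr (Finsupp.mem_support_iff.mp hmd)
  have h4 : d - Finsupp.single m 1 + Finsupp.single m 1 = d := by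
    apply tsub_add_cancel_of_le
    rw [Finsupp.single_le_iff]
    exact h3
  rw [h4] at h1
  simp only [coeff_zero] at h1
  have h5 : coeff d F ≠ 0 := mem_support_iff.mp hd
  have h6 : ((((d - Finsupp.single m 1 : (Fin n → ℕ) →₀ ℕ) m : ℕ) : ℂ)) + 1 ≠ 0 := by
    exact Nat.cast_add_one_ne_zero _
  exact (mul_ne_zero h5 h6) h1.symm


theorem move_injective (i j : Fin n) {p m : Fin n → ℕ} (hp : 0 < p j) (hm : 0 < m j)
    (h : p - Pi.single j 1 + Pi.single i 1 = m - Pi.single j 1 + Pi.single i 1) : p = m := by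
  funext k
  have hk := congrFun h k
  simp only [Pi.add_apply, Pi.sub_apply, Pi.single_apply] at hk
  by_cases h1 : k = j
  · subst h1
    simp only [if_true] at hk
    omega
  · simp only [h1, if_false] at hk
    omega

/-- commutation of a partial derivative with a raising operator -/
theorem pderiv_raise (i j : Fin n) (m : Fin n → ℕ) (hm : 0 < m j) (G : PolyRing n) :
    pderiv (m - Pi.single j 1 + Pi.single i 1) (raise n i j G)
      = raise n i j (pderiv (m - Pi.single j 1 + Pi.single i 1) G)
        + C (m j : ℂ) * pderiv m G := by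
  have key : ⁅(pderiv (m - Pi.single j 1 + Pi.single i 1) :
      Derivation ℂ (PolyRing n) (PolyRing n)), raise n i j⁆
      = (m j : ℂ) • (pderiv m : Derivation ℂ (PolyRing n) (PolyRing n)) := by
    apply derivation_ext
    intro p
    rw [Derivation.commutator_apply, raise_X, pderiv_C_mul, pderiv_X, pderiv_X,
      Derivation.smul_apply, pderiv_X]
    have h0 : raise n i j
        ((Pi.single (m - Pi.single j 1 + Pi.single i 1) 1 : (Fin n → ℕ) → PolyRing n) p) = 0 := by
      rw [Pi.single_apply]
      split_ifs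
      · exact Derivation.map_one_eq_zero _
      · exact map_zero _
    rw [h0, sub_zero]
    by_cases hpm : p = m
    · subst hpm
      simp [smul_eq_C_mul]
    · rw [Pi.single_apply, Pi.single_apply, if_neg hpm, smul_zero]
      by_cases hpj : p j = 0
      · simp [hpj]
      · have : ¬ (p - Pi.single j 1 + Pi.single i 1 = m - Pi.single j 1 + Pi.single i 1) :=
          fun h => hpm (move_injective i j (Nat.pos_of_ne_zero hpj) hm h)
        rw [if_neg this, mul_zero]
  have h2 := congrArg (fun D : Derivation ℂ (PolyRing n) (PolyRing n) => D G) key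
  simp only [Derivation.commutator_apply, Derivation.smul_apply] at h2
  rw [smul_eq_C_mul] at h2
  rw [← h2]
  ring


/-- **Key lemma.** A vector of `Sym^a(Sym^{b+1})` of weight `kap` with `kap 1 ≤ b` which is killed
by the raising operators `E_{1j}` only involves variables `X m` with `m 0 > 0`. -/
theorem pos_of_mem_vars {b : ℕ} {kap : Fin (n + 2) → ℕ} {G : PolyRing (n + 2)}
    (hvars : (↑G.vars : Set (Fin (n + 2) → ℕ)) ⊆ {m | ∑ i, m i = b + 1})
    (hw : IsWeightedHomogeneous (fun m : Fin (n + 2) → ℕ => m) G kap)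
    (hk : kap 1 ≤ b)
    (hE : ∀ j : Fin (n + 2), 1 < j → raise (n + 2) 1 j G = 0) :
    ∀ m ∈ G.vars, 0 < m 0 := by
  have Q : ∀ s : ℕ, ∀ m ∈ G.vars, m 0 = 0 → m 1 + s = b + 1 → False := by
    intro s
    induction s with
    | zero =>
      intro m hm _ h1
      have := le_of_mem_vars hw hm 1
      omega
    | succ s ih =>
      intro m hm h0 h1
      have hsum : ∑ i, m i = b + 1 := hvars hm
      rw [Fin.sum_univ_succ, Fin.sum_univ_succ] at hsum
      have hrest : ∑ k : Fin n, m k.succ.succ ≠ 0 := by
        have e1 : m (Fin.succ 0) = m 1 := rfl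
        rw [e1] at hsum
        omega
      obtain ⟨k, _, hk0⟩ := Finset.exists_ne_zero_of_sum_ne_zero hrest
      set j : Fin (n + 2) := k.succ.succ with hj
      have hj1 : (1 : Fin (n + 2)) < j := by
        rw [Fin.lt_def]
        simp [hj]
      have hj1' : j ≠ 1 := ne_of_gt hj1
      have hj0 : j ≠ 0 := by
        intro h
        rw [h] at hj1
        exact absurd hj1 (by simp)
      have hmj : 0 < m j := Nat.pos_of_ne_zero hk0
      have hm' : (m - Pi.single j 1 + Pi.single 1 1) ∉ G.vars := by
        intro hmem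
        apply ih _ hmem
        · simp [h0, hj0.symm]
        · simp only [Pi.add_apply, Pi.sub_apply, Pi.single_apply, if_neg hj1'.symm, if_true]
          omega
      have h2 := pderiv_raise 1 j m hmj G
      rw [hE j hj1, pderiv_eq_zero_of_notMem_vars hm', map_zero, map_zero, zero_add] at h2
      have h3 : (C (m j : ℂ) : PolyRing (n + 2)) ≠ 0 := by
        rw [Ne, C_eq_zero]
        exact_mod_cast hk0
      have h4 : pderiv m G = 0 := by
        rcases mul_eq_zero.mp h2.symm with h | h
        · exact absurd h h3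
        · exact h
      exact notMem_vars_of_pderiv_eq_zero h4 hm
  intro m hm
  by_contra h0
  have h0' : m 0 = 0 := by omega
  have := le_of_mem_vars hw hm 1
  exact Q (b + 1 - m 1) m hm h0' (by omega)


/-- multiplication of a monomial by `x_0` -/
def sh (m : Fin (n + 2) → ℕ) : Fin (n + 2) → ℕ := m + Pi.single 0 1

theorem sh_injective : Function.Injective (sh (n := n)) := by
  intro p q h
  exact add_right_cancel h

theorem sum_sh (m : Fin (n + 2) → ℕ) : ∑ i, sh m i = ∑ i, m i + 1 := by
  unfold sh
  simp [Finset.sum_add_distrib]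

theorem raise_rename (i j : Fin (n + 2)) (hj : j ≠ 0) (F : PolyRing (n + 2)) :
    raise (n + 2) i j (rename sh F) = rename sh (raise (n + 2) i j F) := by
  induction F using MvPolynomial.induction_on with
  | C c => simp
  | add p q hp hq => simp [hp, hq]
  | mul_X p m hp =>
    rw [map_mul, Derivation.leibniz, Derivation.leibniz, hp, rename_X, raise_X, raise_X]
    simp only [smul_eq_mul, map_add, map_mul, rename_X, rename_C]
    have e1 : sh m j = m j := by
      unfold sh
      simp [hj]
    have e2 : sh m - Pi.single j 1 + Pi.single i 1 = sh (m - Pi.single j 1 + Pi.single i 1) := by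
      funext k
      unfold sh
      simp only [Pi.add_apply, Pi.sub_apply, Pi.single_apply]
      by_cases hk : k = j
      · subst hk
        simp [hj]
      · simp only [hk, if_false]
        omega
    rw [e1, e2]

theorem weight_mapDomain_sh (u : (Fin (n + 2) → ℕ) →₀ ℕ) :
    Finsupp.weight (fun m : Fin (n + 2) → ℕ => m) (Finsupp.mapDomain sh u)
      = Finsupp.weight (fun m : Fin (n + 2) → ℕ => m) u + Pi.single 0 u.degree := by
  rw [Finsupp.weight_apply, Finsupp.weight_apply,
    Finsupp.sum_mapDomain_index (by simp) (by intro m c1 c2; simp [add_smul])]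
  unfold sh
  simp only [smul_add]
  rw [Finsupp.sum_add]
  congr 1
  funext k
  rw [Finsupp.sum, Finset.sum_apply, Finsupp.degree_apply]
  by_cases hk : k = 0
  · subst hk
    simp
  · simp [hk]


theorem ne_zero_of_lt {i j : Fin (n + 2)} (h : i < j) : j ≠ 0 := by
  intro hj
  rw [hj] at h
  exact absurd h (by simp)

/-- the shift `X_m ↦ X_{m + e_0}` maps highest weight vectors to highest weight vectors -/
theorem shift_mem {a b : ℕ} {lam : Fin (n + 2) → ℕ} {F : PolyRing (n + 2)}
    (hF : F ∈ HW (n + 2) a b lam) :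
    rename sh F ∈ HW (n + 2) a (b + 1) (lam + Pi.single 0 a) := by
  classical
  rw [mem_HW] at hF ⊢
  obtain ⟨hv, hh, hw, hE⟩ := hF
  refine ⟨?_, hh.rename_isHomogeneous, ?_, ?_⟩
  · intro m hm
    have := vars_rename sh F hm
    rw [Finset.mem_image] at this
    obtain ⟨p, hp, rfl⟩ := this
    have hp' : ∑ i, p i = b := hv hp
    show ∑ i, sh p i = b + 1
    rw [sum_sh, hp']
  · intro d hd
    obtain ⟨u, rfl, hu⟩ := coeff_rename_ne_zero sh F d hd
    have hdeg : u.degree = a := by
      rw [Finsupp.degree_eq_weight_one]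
      exact hh hu
    rw [weight_mapDomain_sh, hw hu, hdeg]
  · intro i j hij
    rw [raise_rename i j (ne_zero_of_lt hij), hE i j hij, map_zero]

/-- the shift is onto the highest weight vectors of weight `lam + a e_0` as soon as `lam 1 ≤ b` -/
theorem shift_surj {a b : ℕ} {lam : Fin (n + 2) → ℕ} (h1 : lam 1 ≤ b) {G : PolyRing (n + 2)}
    (hG : G ∈ HW (n + 2) a (b + 1) (lam + Pi.single 0 a)) :
    ∃ F ∈ HW (n + 2) a b lam, rename sh F = G := by
  classical
  rw [mem_HW] at hG
  obtain ⟨hv, hh, hw, hE⟩ := hG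
  have hk : (lam + Pi.single 0 a : Fin (n + 2) → ℕ) 1 ≤ b := by
    simpa using h1
  have hpos := pos_of_mem_vars hv hw hk (fun j hj => hE 1 j hj)
  have hrange : (↑G.vars : Set (Fin (n + 2) → ℕ)) ⊆ Set.range sh := by
    intro m hm
    refine ⟨m - Pi.single 0 1, ?_⟩
    have := hpos m hm
    unfold sh
    funext k
    simp only [Pi.add_apply, Pi.sub_apply, Pi.single_apply]
    by_cases hk0 : k = 0
    · subst hk0
      simp only [if_true]
      omega
    · simp [hk0]
  obtain ⟨F, hF⟩ := exists_rename_eq_of_vars_subset_range G sh sh_injective hrange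
  refine ⟨F, ?_, hF⟩
  rw [mem_HW]
  have hhF : F.IsHomogeneous a := by
    rw [← IsHomogeneous.rename_isHomogeneous_iff sh_injective, hF]
    exact hh
  have hcoeff : ∀ u, coeff u F ≠ 0 → coeff (Finsupp.mapDomain sh u) G ≠ 0 := by
    intro u hu
    rw [← hF, coeff_rename_mapDomain sh sh_injective]
    exact hu
  refine ⟨?_, hhF, ?_, ?_⟩
  · intro m hm
    rw [Finset.mem_coe, mem_vars_iff_mem_support] at hm
    obtain ⟨u, hu, hmu⟩ := hm
    have h2 : sh m ∈ G.vars := by
      rw [mem_vars_iff_mem_support]
      refine ⟨Finsupp.mapDomain sh u, mem_support_iff.mpr (hcoeff u (mem_support_iff.mp hu)), ?_⟩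
      rw [Finsupp.mem_support_iff, Finsupp.mapDomain_apply sh_injective]
      exact Finsupp.mem_support_iff.mp hmu
    have h3 : ∑ i, sh m i = b + 1 := hv h2
    rw [sum_sh] at h3
    show ∑ i, m i = b
    omega
  · intro u hu
    have h2 := hw (hcoeff u hu)
    have hdeg : u.degree = a := by
      rw [Finsupp.degree_eq_weight_one]
      exact hhF hu
    rw [weight_mapDomain_sh, hdeg] at h2
    exact add_right_cancel h2
  · intro i j hij
    apply rename_injective sh sh_injective
    rw [← raise_rename i j (ne_zero_of_lt hij), hF, hE i j hij, map_zero]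

/-- multiplication by the highest weight vector `X_{a e_0}` (the monomial `x_0^a`) -/
theorem mulX_mem {c a : ℕ} {lam : Fin (n + 2) → ℕ} {F : PolyRing (n + 2)}
    (hF : F ∈ HW (n + 2) c a lam) :
    X (Pi.single 0 a) * F ∈ HW (n + 2) (c + 1) a (lam + Pi.single 0 a) := by
  classical
  rw [mem_HW] at hF ⊢
  obtain ⟨hv, hh, hw, hE⟩ := hF
  refine ⟨?_, ?_, ?_, ?_⟩
  · intro m hm
    have := vars_mul _ _ hm
    rw [Finset.mem_union, vars_X, Finset.mem_singleton] at this
    rcases this with rfl | h
    · show ∑ i, (Pi.single 0 a : Fin (n + 2) → ℕ) i = a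
      simp
    · exact hv h
  · have h2 := (isHomogeneous_X ℂ (Pi.single 0 a : Fin (n + 2) → ℕ)).mul hh
    rw [Nat.add_comm 1 c] at h2
    exact h2
  · have h2 :=
      (isWeightedHomogeneous_X ℂ (fun m : Fin (n + 2) → ℕ => m) (Pi.single 0 a)).mul hw
    rw [add_comm (Pi.single 0 a : Fin (n + 2) → ℕ) lam] at h2
    exact h2
  · intro i j hij
    rw [Derivation.leibniz, hE i j hij, raise_X]
    have : (Pi.single 0 a : Fin (n + 2) → ℕ) j = 0 := by
      simp [ne_zero_of_lt hij]
    simp [this]

end Vale.Agent.Lib.P181
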